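import Vale.Agent.P297.Gg.Dom

/-!
Algebraically closed fields with many independent elements.
-/

set_option linter.unusedSectionVars false
set_option linter.style.haveILetI false

open CategoryTheory AlgebraicGeometry IntermediateField Polynomial

namespace Vale.Agent.P297.Gg

open Vale.Agent.P297 Vale.Agent.P297.H839 Vale.Agent.P297.H516 Vale.Agent.P297.H878
  Vale.Agent.P297.Gen

/-- An algebraically closed field with a transcendence basis. -/
structure BigG (N : Type) [Field N] [Algebra ℂ N] {ι : Type} (u : ι → N) : Prop where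
  ind : AlgebraicIndependent ℂ u
  all : ∀ M : IntermediateField ℂ N, (∀ v, IsAlgebraic M v → v ∈ M) → (∀ i, u i ∈ M) → ∀ v, v ∈ M

theorem exists_bigG (ι : Type) : ∃ (N : Type) (_ : Field N) (_ : Algebra ℂ N) (_ : IsAlgClosed N)
    (u : ι → N), BigG N u := by
  let R := MvPolynomial ι ℂ
  let E := FractionRing R
  let N := AlgebraicClosure E
  let g : R →ₐ[ℂ] N := IsScalarTower.toAlgHom ℂ R N
  have hg : Function.Injective g := by
    have h1 : Function.Injective (algebraMap R N) := by
      rw [IsScalarTower.algebraMap_eq R E N]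
      exact (algebraMap E N).injective.comp (IsFractionRing.injective R E)
    exact h1
  let u : ι → N := fun i => g (MvPolynomial.X i)
  refine ⟨N, inferInstance, inferInstance, inferInstance, u, ?_, ?_⟩
  · exact (MvPolynomial.algebraicIndependent_X ι ℂ).map' (f := g) hg
  · intro M hM hu v
    have h1 : ∀ r : R, g r ∈ M := by
      intro r
      have h2 : g = MvPolynomial.aeval u := MvPolynomial.algHom_ext fun i => by
        rw [MvPolynomial.aeval_X]
      rw [h2]
      induction r using MvPolynomial.induction_on with
      | C a => rw [MvPolynomial.aeval_C]; exact M.algebraMap_mem a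
      | add p q hp hq => rw [map_add]; exact add_mem hp hq
      | mul_X p i hp => rw [map_mul, MvPolynomial.aeval_X]; exact mul_mem hp (hu i)
    have h2 : ∀ e : E, algebraMap E N e ∈ M := by
      intro e
      obtain ⟨a, b, hb, rfl⟩ := IsFractionRing.div_surjective (A := R) e
      rw [map_div₀, ← IsScalarTower.algebraMap_apply, ← IsScalarTower.algebraMap_apply]
      exact div_mem (h1 a) (h1 b)
    obtain ⟨p, hp0, hp⟩ := Algebra.IsAlgebraic.isAlgebraic (R := E) v
    apply hM
    refine isAlgebraic_of_coeff (p := p.map (algebraMap E N)) ?_ ?_ ?_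
    · intro n
      rw [coeff_map]
      exact h2 _
    · exact (Polynomial.map_ne_zero_iff (algebraMap E N).injective).2 hp0
    · rw [Polynomial.eval_map]
      exact hp

section

variable {N : Type} [Field N] [Algebra ℂ N] [IsAlgClosed N] {ι : Type} {u : ι → N}

theorem BigG.notMem (h : BigG N u) {s : Set ι} {i : ι} (hi : i ∉ s) : u i ∉ cl0 (u '' s) := by
  rw [mem_cl0]
  exact (IntermediateField.transcendental_adjoin_iff).2 (h.ind.transcendental_adjoin hi)

theorem cl0_mono {S T : Set N} (h : S ⊆ T) : cl0 S ≤ cl0 T :=
  cl0_le (cl0_closed T) (h.trans (subset_cl0 T))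

/-- The field of constants of a derivation. -/
noncomputable def kerD (D : Derivation ℤ N N) (h : ∀ r : ℂ, D (algebraMap ℂ N r) = 0) :
    IntermediateField ℂ N where
  carrier := {x | D x = 0}
  mul_mem' := by
    intro a b ha hb
    have ha' : D a = 0 := ha
    have hb' : D b = 0 := hb
    change D (a * b) = 0
    rw [Derivation.leibniz, ha', hb', smul_zero, smul_zero, add_zero]
  one_mem' := D.map_one_eq_zero
  add_mem' := by
    intro a b ha hb
    have ha' : D a = 0 := ha
    have hb' : D b = 0 := hb
    change D (a + b) = 0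
    rw [map_add, ha', hb', add_zero]
  zero_mem' := map_zero D
  algebraMap_mem' := h
  inv_mem' := by
    intro x hx
    have hx' : D x = 0 := hx
    change D x⁻¹ = 0
    rw [Derivation.leibniz_inv, hx', smul_zero]

theorem mem_kerD {D : Derivation ℤ N N} {h : ∀ r : ℂ, D (algebraMap ℂ N r) = 0} {x : N} :
    x ∈ kerD D h ↔ D x = 0 := Iff.rfl

theorem kerD_closed (D : Derivation ℤ N N) (h : ∀ r : ℂ, D (algebraMap ℂ N r) = 0) (x : N)
    (hx : IsAlgebraic (kerD D h) x) : x ∈ kerD D h := by
  haveI : CharZero (kerD D h) :=
    charZero_of_injective_algebraMap (algebraMap ℂ (kerD D h)).injective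
  have hint : IsIntegral (kerD D h) x := hx.isIntegral
  have hsep : (minpoly (kerD D h) x).Separable := (minpoly.irreducible hint).separable
  set p := (minpoly (kerD D h) x).map (algebraMap (kerD D h) N) with hp
  have hpx : p.eval x = 0 := by
    rw [hp, Polynomial.eval_map]
    exact minpoly.aeval _ x
  have hps : p.Separable := hsep.map
  have hdc : dc D p = 0 := by
    ext n
    rw [coeff_dc, hp, coeff_map, Polynomial.coeff_zero]
    exact ((minpoly (kerD D h) x).coeff n).2
  have h1 := dc_eval D p x
  rw [hpx, map_zero, hdc, eval_zero, zero_add] at h1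
  rw [mem_kerD]
  refine (mul_eq_zero.1 h1.symm).resolve_left ?_
  exact hps.eval₂_derivative_ne_zero (RingHom.id N) (by rw [eval₂_id]; exact hpx)

/-- Independent elements do not lie in the closure of fewer elements. -/
theorem BigG.big (h : BigG N u) {g : ℕ} (L : IntermediateField ℂ N) (b : Fin g → ι)
    (hb : Function.Injective b) (s : Set ι) (hs : ∀ i, b i ∉ s) (hL : L = cl0 (u '' s))
    (T : Finset N) (hT : T.card < g) : ∃ i, u (b i) ∉ clo L T := by
  classical
  by_contra hcon
  push Not at hcon
  -- the dual derivations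
  have hex : ∀ i, ∃ D : Derivation ℤ N N, (∀ x ∈ cl0 (u '' {b i}ᶜ), D x = 0) ∧ D (u (b i)) = 1 := by
    intro i
    refine exists_derivation _ fun halg => ?_
    exact h.notMem (s := {b i}ᶜ) (i := b i) (by simp) (cl0_closed _ _ halg)
  choose D hD0 hD1 using hex
  have hLle : ∀ i, L ≤ cl0 (u '' {b i}ᶜ) := by
    intro i
    rw [hL]
    apply cl0_mono
    apply Set.image_mono
    intro j hj
    rw [Set.mem_compl_iff, Set.mem_singleton_iff]
    rintro rfl
    exact hs i hj
  have hDu : ∀ i j, D i (u (b j)) = if i = j then 1 else 0 := by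
    intro i j
    split_ifs with hij
    · subst hij
      exact hD1 i
    · refine hD0 i _ (subset_cl0 _ ⟨b j, ?_, rfl⟩)
      rw [Set.mem_compl_iff, Set.mem_singleton_iff]
      exact fun h1 => hij (hb h1).symm
  -- a combination that kills `T`
  let φ : (Fin g → N) →ₗ[N] (T → N) :=
    { toFun := fun c t => ∑ i, c i * D i t
      map_add' := by
        intro c c'
        funext t
        simp only [Pi.add_apply, add_mul, Finset.sum_add_distrib]
      map_smul' := by
        intro r c
        funext t
        simp only [Pi.smul_apply, smul_eq_mul, RingHom.id_apply, Finset.mul_sum, mul_assoc] }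
  have hker : LinearMap.ker φ ≠ ⊥ := by
    apply LinearMap.ker_ne_bot_of_finrank_lt
    rw [Module.finrank_fintype_fun_eq_card, Module.finrank_fintype_fun_eq_card, Fintype.card_coe,
      Fintype.card_fin]
    exact hT
  obtain ⟨c, hc, hc0⟩ := (Submodule.ne_bot_iff _).1 hker
  have hcT : ∀ t ∈ T, ∑ i, c i * D i t = 0 := fun t ht => congrFun hc ⟨t, ht⟩
  let E : Derivation ℤ N N := ∑ i, c i • D i
  have hE : ∀ x, E x = ∑ i, c i * D i x := by
    intro x
    have h1 : E x = ∑ i, (c i • D i) x := by
      change (∑ i, c i • D i) x = _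
      rw [← Derivation.coeFnAddMonoidHom_apply, map_sum, Finset.sum_apply]
      rfl
    rw [h1]
    rfl
  have hEL : ∀ x ∈ L, E x = 0 := by
    intro x hx
    rw [hE]
    exact Finset.sum_eq_zero fun i _ => by rw [hD0 i x (hLle i hx), mul_zero]
  have hEC : ∀ r : ℂ, E (algebraMap ℂ N r) = 0 := fun r => hEL _ (L.algebraMap_mem r)
  have hle : clo L (T : Set N) ≤ kerD E hEC := by
    refine clo_le (kerD_closed E hEC) (fun x hx => hEL x hx) ?_
    intro t ht
    change E t = 0
    rw [hE]
    exact hcT t ht
  apply hc0
  funext i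
  have h2 : E (u (b i)) = 0 := hle (hcon i)
  rw [hE, Finset.sum_eq_single i] at h2
  · rw [hDu, if_pos rfl, mul_one] at h2
    exact h2
  · intro j _ hj
    rw [hDu, if_neg hj, mul_zero]
  · intro h3
    exact absurd (Finset.mem_univ i) h3

end

end Vale.Agent.P297.Gg
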