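import Vale.Agent.P297.Gg.Defs
import Vale.Agent.P297.Gen.Setup
import Vale.Agent.P297.Gen.H516.Ext
import Vale.Agent.P297.H878.Fibre
import Vale.Agent.P297.H878.Clos
import Vale.Agent.P297.H878.Emb

/-!
The fibres of the two maps to rational elliptic surfaces.
-/

set_option linter.unusedSectionVars false
set_option linter.style.haveILetI false

open CategoryTheory AlgebraicGeometry IntermediateField Polynomial

namespace Vale.Agent.P297.Gg

open Vale.Agent.P297 Vale.Agent.P297.H839 Vale.Agent.P297.H516 Vale.Agent.P297.H878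
  Vale.Agent.P297.Gen

variable {K : Type} [Field K] [Algebra ℂ K]

section Emb

variable {g : ℕ} {l x y : K} {f : (IntermediateField.adjoin ℂ {l})[X]}

theorem HPencil.sep (h : HPencil g l x y f) : f.Separable := by
  haveI : CharZero (IntermediateField.adjoin ℂ ({l} : Set K)) :=
    charZero_of_injective_algebraMap (algebraMap ℂ _).injective
  exact PerfectField.separable_iff_squarefree.2 h.sqf

theorem HPencil.notMem (h : HPencil g l x y f) :
    y ∉ IntermediateField.adjoin ℂ (Set.range ![l, x]) := by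
  let Ω := AlgebraicClosure K
  let j : K →ₐ[ℂ] Ω := IsScalarTower.toAlgHom ℂ K Ω
  have hj : Function.Injective j := (algebraMap K Ω).injective
  have hind : AlgebraicIndependent ℂ ![j l, j x] := by
    have h2 := h.ind.map' (f := j) hj
    have h3 : (⇑j ∘ ![l, x]) = ![j l, j x] := by
      funext i
      fin_cases i <;> rfl
    rwa [h3] at h2
  obtain ⟨M, hM, hlM, hMi⟩ := exists_closure ((pair_iff _ _).1 hind).1
  have hle : (IntermediateField.adjoin ℂ {l}).map j ≤ M := by
    rw [IntermediateField.adjoin_map, Set.image_singleton]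
    exact hlM
  let e : IntermediateField.adjoin ℂ {l} →+* M :=
    { toFun := fun a => ⟨j a, hle ⟨a, a.2, rfl⟩⟩
      map_one' := Subtype.ext (map_one j)
      map_zero' := Subtype.ext (map_zero j)
      map_mul' := fun a b => Subtype.ext (map_mul j _ _)
      map_add' := fun a b => Subtype.ext (map_add j _ _) }
  have hx : j x ∉ M := (hMi _).1 hind
  intro hmem
  refine sqrt_notMem M hM (f.map e) (h.sep.map (f := e)) ?_ (z := j x) (y := j y) hx ?_ ?_
  · rw [Polynomial.natDegree_map]
    have := h.low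
    omega
  · rw [← map_pow, h.eq, Polynomial.aeval_def, Polynomial.aeval_def, Polynomial.eval₂_map]
    exact Polynomial.hom_eval₂ f _ j.toRingHom x
  · have h4 : (IntermediateField.adjoin ℂ (Set.range ![l, x])).map j ≤
        (IntermediateField.adjoin M {j x}).restrictScalars ℂ := by
      rw [IntermediateField.adjoin_map, IntermediateField.adjoin_le_iff]
      rintro _ ⟨_, ⟨i, rfl⟩, rfl⟩
      fin_cases i
      · exact (IntermediateField.adjoin M {j x}).algebraMap_mem
          ⟨j l, hle ⟨l, IntermediateField.mem_adjoin_simple_self ℂ l, rfl⟩⟩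
      · exact IntermediateField.mem_adjoin_simple_self M (j x)
    exact h4 ⟨y, hmem, rfl⟩

theorem HPencil.sq_mem (h : HPencil g l x y f) :
    y ^ 2 ∈ IntermediateField.adjoin ℂ (Set.range ![l, x]) := by
  rw [h.eq]
  exact aeval_mem _ (le_range l x) (IntermediateField.subset_adjoin _ _ ⟨1, rfl⟩) f

theorem HPencil.span (h : HPencil g l x y f) (k : K) :
    ∃ a ∈ IntermediateField.adjoin ℂ (Set.range ![l, x]),
      ∃ b ∈ IntermediateField.adjoin ℂ (Set.range ![l, x]), k = a + b * y := by
  refine exists_quad _ y h.sq_mem {l, x, y} ?_ h.top k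
  rintro k (rfl | rfl | rfl)
  · exact Or.inl (IntermediateField.subset_adjoin _ _ ⟨0, rfl⟩)
  · exact Or.inl (IntermediateField.subset_adjoin _ _ ⟨1, rfl⟩)
  · exact Or.inr rfl

/-- The points of the pencil. -/
theorem HPencil.emb (h : HPencil g l x y f) {N : Type} [Field N] [Algebra ℂ N]
    (lam : IntermediateField.adjoin ℂ {l} →ₐ[ℂ] N) {z' y' : N}
    (hz : AlgebraicIndependent ℂ
      ![lam ⟨l, IntermediateField.mem_adjoin_simple_self ℂ l⟩, z'])
    (hy' : y' ^ 2 = (f.map lam.toRingHom).eval z') :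
    ∃ Θ : K →ₐ[ℂ] N, (∀ e : IntermediateField.adjoin ℂ {l}, Θ e = lam e) ∧ Θ x = z' ∧
      Θ y = y' := by
  obtain ⟨τ, hτ⟩ := exists_tau ![l, x] h.ind
    ![lam ⟨l, IntermediateField.mem_adjoin_simple_self ℂ l⟩, z'] (fun w hw =>
      isUnit_iff_ne_zero.2 fun h0 => hw (hz.eq_zero_of_aeval_eq_zero w h0))
  have hle := le_range l x
  have hτl : τ.comp (IntermediateField.inclusion hle) = lam := by
    apply agree_on_gen
    rintro _ rfl
    exact hτ 0
  have hτe : ∀ e : IntermediateField.adjoin ℂ {l}, τ (IntermediateField.inclusion hle e) = lam e :=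
    fun e => DFunLike.congr_fun hτl e
  let x₀ : IntermediateField.adjoin ℂ (Set.range ![l, x]) :=
    ⟨x, IntermediateField.subset_adjoin _ _ ⟨1, rfl⟩⟩
  have hτx : τ x₀ = z' := hτ 1
  have key : y' ^ 2 = τ ⟨y ^ 2, h.sq_mem⟩ := by
    have h1 : (⟨y ^ 2, h.sq_mem⟩ : IntermediateField.adjoin ℂ (Set.range ![l, x])) =
        Polynomial.eval₂ (IntermediateField.inclusion hle).toRingHom x₀ f := by
      apply Subtype.ext
      have h2 := Polynomial.hom_eval₂ f (IntermediateField.inclusion hle).toRingHom
        (IntermediateField.adjoin ℂ (Set.range ![l, x])).val.toRingHom x₀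
      exact h.eq.trans h2.symm
    rw [h1, hy', Polynomial.eval_map]
    have h3 := Polynomial.hom_eval₂ f (IntermediateField.inclusion hle).toRingHom τ.toRingHom x₀
    refine Eq.trans ?_ h3.symm
    change _ = Polynomial.eval₂ _ (τ x₀) f
    rw [hτx]
    congr 1
    exact RingHom.ext fun e => (hτe e).symm
  obtain ⟨Θ, hΘ, hΘy⟩ := exists_theta _ y h.sq_mem h.notMem h.span τ y' key
  refine ⟨Θ, ?_, ?_, hΘy⟩
  · intro e
    have h1 := hΘ (IntermediateField.inclusion hle e)
    rw [hτe] at h1
    exact h1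
  · have h1 := hΘ x₀
    rw [hτx] at h1
    exact h1

end Emb

section Ext

variable {N : Type} [Field N] [Algebra ℂ N] [IsAlgClosed N]

theorem HPencil.range_mem {g : ℕ} {l x y : K} {f : (IntermediateField.adjoin ℂ {l})[X]}
    (h : HPencil g l x y f) {M : IntermediateField ℂ N} (hM : ∀ u, IsAlgebraic M u → u ∈ M)
    {φ : K →ₐ[ℂ] N} (hl : φ l ∈ M) (hx : φ x ∈ M) (k : K) : φ k ∈ M := by
  have hC : ∀ e ∈ IntermediateField.adjoin ℂ (Set.range ![l, x]), φ e ∈ M := by
    have h1 : (IntermediateField.adjoin ℂ (Set.range ![l, x])).map φ ≤ M := by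
      rw [IntermediateField.adjoin_map, IntermediateField.adjoin_le_iff]
      rintro _ ⟨_, ⟨i, rfl⟩, rfl⟩
      fin_cases i
      · exact hl
      · exact hx
    exact fun e he => h1 ⟨e, he, rfl⟩
  have hy : φ y ∈ M := by
    apply hM
    refine isAlgebraic_of_coeff (p := X ^ 2 - C (φ (y ^ 2))) ?_ ?_ ?_
    · intro n
      rw [coeff_sub, coeff_X_pow, coeff_C]
      refine sub_mem ?_ ?_
      · split_ifs
        · exact one_mem _
        · exact zero_mem _
      · split_ifs
        · exact hC _ h.sq_mem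
        · exact zero_mem _
    · exact (monic_X_pow_sub_C _ two_ne_zero).ne_zero
    · rw [eval_sub, eval_pow, eval_X, eval_C, map_pow, sub_self]
  obtain ⟨a, ha, b, hb, rfl⟩ := h.span k
  rw [map_add, map_mul]
  exact add_mem (hC a ha) (mul_mem (hC b hb) hy)

theorem HPencil.ext {g : ℕ} {l x y : K} {f : (IntermediateField.adjoin ℂ {l})[X]}
    (h : HPencil g l x y f) {φ ψ : K →ₐ[ℂ] N} (hl : φ l = ψ l) (hx : φ x = ψ x) (hy : φ y = ψ y) :
    φ = ψ := by
  apply AlgHom.ext
  intro k
  have hk : k ∈ IntermediateField.adjoin ℂ ({l, x, y} : Set K) := by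
    rw [h.top]
    trivial
  induction hk using IntermediateField.adjoin_induction with
  | mem x hx' =>
    rcases hx' with rfl | rfl | rfl
    · exact hl
    · exact hx
    · exact hy
  | algebraMap r => rw [AlgHom.commutes, AlgHom.commutes]
  | add x y _ _ h1 h2 => rw [map_add, map_add, h1, h2]
  | mul x y _ _ h1 h2 => rw [map_mul, map_mul, h1, h2]
  | inv x _ h1 => rw [map_inv₀, map_inv₀, h1]

end Ext

end Vale.Agent.P297.Gg
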