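import Vale.Agent.P297.Gen.H516.Core

/-!
The linear system through the points of several fibres, for every genus.
-/

set_option linter.unusedSectionVars false
set_option linter.style.haveILetI false

open IntermediateField Polynomial

namespace Vale.Agent.P297.Gg

open Vale.Agent.P297.Gen

section

variable {N : Type} [Field N] [Algebra ℂ N]

/-- The data. The points `i` with `bl i = none` are fixed points over `L`; the points with
`bl i = some b` are the points of the `b`-th fibre. -/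
structure SysG (L : IntermediateField ℂ N) (f : N[X]) (g a : ℕ) {I : Type} [Fintype I]
    (bl : I → Option (Fin g)) (z y : I → N) : Prop where
  coeff : ∀ n, f.coeff n ∈ L
  sep : f.Separable
  pos : 1 ≤ g
  hi : f.natDegree ≤ 2 * g + 2
  lo : 2 * g + 1 ≤ f.natDegree
  sum : Fintype.card I + g = 2 * a
  card : g + 2 ≤ Fintype.card I
  inj : Function.Injective z
  pt : ∀ i, y i ^ 2 = f.eval (z i)
  fix : ∀ i, bl i = none → z i ∈ L
  ne0 : ∀ i, z i ≠ 0
  dom : ∀ α β Q : N[X], Q ≠ 0 → Van z y α β →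
    α ^ 2 - β ^ 2 * f = (∏ i, (X - C (z i))) * Q → ∀ i, Cl L {r | Q.IsRoot r} (z i)
  big : ∀ T : Finset N, T.card < g → ∃ i, ¬ Cl L T (z i)
  same : ∀ (b : Fin g) (i j : I), bl i = some b → bl j = some b → Cl L {z i} (z j)
  other : ∀ (b : Fin g) (i : I), bl i = some b → ∃ j, bl j = some b ∧ i ≠ j
  aut : ∀ (b : Fin g) (i j : I), bl i = some b → bl j = some b → i ≠ j → ∃ θ : N ≃ₐ[ℂ] N,
    (∀ x ∈ L, θ x = x) ∧ θ (z i) = z j ∧ ∃ π : Equiv.Perm I,
      ∀ k, θ (z k) = z (π k) ∧ θ (y k) = y (π k)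

variable {L : IntermediateField ℂ N} {f : N[X]} {g a : ℕ} {I : Type} [Fintype I]
  {bl : I → Option (Fin g)} {z y : I → N}

theorem SysG.deg_left (_ : SysG L f g a bl z y) {α : N[X]} (hα : α ∈ degreeLT N (a + 1)) :
    α.natDegree ≤ a := by
  rw [mem_degreeLT] at hα
  by_cases hα0 : α = 0
  · rw [hα0, natDegree_zero]
    omega
  · rw [degree_eq_natDegree hα0, Nat.cast_lt] at hα
    omega

theorem SysG.deg_right (S : SysG L f g a bl z y) {β : N[X]} (hβ : β ∈ degreeLT N (a - g)) :
    β.natDegree + g + 1 ≤ a := by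
  have h1 := S.sum
  have h2 := S.card
  rw [mem_degreeLT] at hβ
  by_cases hβ0 : β = 0
  · rw [hβ0, natDegree_zero]
    omega
  · rw [degree_eq_natDegree hβ0, Nat.cast_lt] at hβ
    omega

theorem SysG.normal [IsAlgClosed N] (S : SysG L f g a bl z y) {α β : N[X]}
    (hα : α ∈ degreeLT N (a + 1)) (hβ : β ∈ degreeLT N (a - g)) (h0 : ¬ (α = 0 ∧ β = 0))
    (hv : Van z y α β) :
    ∃ (c : N) (w : Fin g → N), c ≠ 0 ∧
      α ^ 2 - β ^ 2 * f = C c * (∏ i, (X - C (z i))) * (∏ k, (X - C (w k))) ∧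
      Function.Injective w ∧ (∀ i, Cl L (Set.range w) (z i)) ∧
      ∀ k, ¬ Cl L (w '' {k}ᶜ) (w k) := by
  classical
  have hpos := S.pos
  have hlo := S.lo
  have hhi := S.hi
  have hsum := S.sum
  have hN := norm_ne_zero S.sep (by omega) h0
  obtain ⟨Q, hQ⟩ := prod_dvd S.inj (p := α ^ 2 - β ^ 2 * f) (fun i => norm_root (S.pt i) (hv i))
  have hQ0 : Q ≠ 0 := by
    rintro rfl
    rw [mul_zero] at hQ
    exact hN hQ
  have hdα := S.deg_left hα
  have hdβ := S.deg_right hβ
  have hdN : (α ^ 2 - β ^ 2 * f).natDegree ≤ 2 * a := by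
    refine (natDegree_sub_le _ _).trans (max_le ?_ ?_)
    · refine natDegree_pow_le.trans ?_
      omega
    · refine natDegree_mul_le.trans ?_
      have h1 : (β ^ 2).natDegree ≤ 2 * β.natDegree := natDegree_pow_le
      omega
  have hmonic : (∏ i, (X - C (z i))).Monic := monic_prod_of_monic _ _ fun i _ => monic_X_sub_C _
  have hdP : (∏ i, (X - C (z i))).natDegree = Fintype.card I := by
    rw [natDegree_prod_of_monic _ _ fun i _ => monic_X_sub_C _]
    simp
  have hdQ : Q.natDegree ≤ g := by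
    have h1 : (α ^ 2 - β ^ 2 * f).natDegree = Fintype.card I + Q.natDegree := by
      rw [hQ, hmonic.natDegree_mul' hQ0, hdP]
    omega
  have hdom := S.dom α β Q hQ0 hv hQ
  set R := Q.roots.toFinset with hR
  have hRmem : ∀ r, r ∈ R ↔ Q.IsRoot r := by
    intro r
    rw [hR, Multiset.mem_toFinset, mem_roots hQ0]
  have hRset : {r | Q.IsRoot r} = (R : Set N) := by
    ext r
    rw [Finset.mem_coe, hRmem]
    rfl
  rw [hRset] at hdom
  have hcard1 : Q.roots.card = Q.natDegree := splits_iff_card_roots.1 (IsAlgClosed.splits Q)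
  have hcard2 : R.card ≤ Q.roots.card := Multiset.toFinset_card_le _
  have hcard3 : g ≤ R.card := by
    by_contra hlt
    obtain ⟨i, hi⟩ := S.big R (by omega)
    exact hi (hdom i)
  have hRcard : R.card = g := by omega
  have hnodup : Q.roots.Nodup := Multiset.toFinset_card_eq_card_iff_nodup.1 (by
    change R.card = _
    omega)
  let e : Fin g ≃ R := (Finset.equivFinOfCardEq hRcard).symm
  let w : Fin g → N := fun k => (e k : N)
  have hw : Function.Injective w := Subtype.val_injective.comp e.injective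
  have hrange : Set.range w = (R : Set N) := by
    ext r
    constructor
    · rintro ⟨k, rfl⟩
      exact (e k).2
    · intro hr
      exact ⟨e.symm ⟨r, hr⟩, by simp [w]⟩
  have hprod : (Q.roots.map fun r => X - C r).prod = ∏ k, (X - C (w k)) := by
    have h3 : (Q.roots.map fun r => X - C r).prod = ∏ r ∈ R, (X - C r) := by
      rw [Finset.prod_eq_multiset_prod, Multiset.toFinset_val, hnodup.dedup]
    rw [h3, ← Finset.prod_coe_sort]
    exact (e.prod_comp (fun r => X - C (r : N))).symm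
  have hQe := (IsAlgClosed.splits Q).eq_prod_roots
  rw [hprod] at hQe
  refine ⟨Q.leadingCoeff, w, leadingCoeff_ne_zero.2 hQ0, ?_, hw, ?_, ?_⟩
  · rw [hQ]
    nth_rw 1 [hQe]
    ring
  · intro i
    rw [hrange]
    exact hdom i
  · intro k hk
    obtain ⟨i, hi⟩ := S.big (R.erase (w k)) (by
      rw [Finset.card_erase_of_mem (e k).2]
      omega)
    apply hi
    apply (hdom i).trans
    have hsub : w '' {k}ᶜ ⊆ ((R.erase (w k) : Finset N) : Set N) := by
      rintro _ ⟨k', hk', rfl⟩
      rw [Finset.mem_coe, Finset.mem_erase]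
      exact ⟨fun h => hk' (hw h), (e k').2⟩
    intro r hr
    by_cases hrk : r = w k
    · rw [hrk]
      exact hk.mono hsub
    · apply Cl.of_mem
      rw [Finset.mem_coe, Finset.mem_erase]
      exact ⟨hrk, hr⟩

/-- no solution vanishes at a point over `L` -/
theorem SysG.noL [IsAlgClosed N] (S : SysG L f g a bl z y) {α β : N[X]}
    (hα : α ∈ degreeLT N (a + 1)) (hβ : β ∈ degreeLT N (a - g)) (hv : Van z y α β)
    {r s : N} (hr : r ∈ L) (hrz : ∀ i, r ≠ z i) (hs : s ^ 2 = f.eval r)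
    (h : α.eval r + β.eval r * s = 0) : α = 0 ∧ β = 0 := by
  by_contra h0
  obtain ⟨c, w, hc, hN, -, -, h1⟩ := S.normal hα hβ h0 hv
  have h3 := norm_root hs h
  rw [hN, eval_mul, eval_mul, eval_C, eval_prod, eval_prod] at h3
  simp only [eval_sub, eval_X, eval_C] at h3
  rcases mul_eq_zero.1 h3 with h4 | h4
  · rcases mul_eq_zero.1 h4 with h5 | h5
    · exact hc h5
    · obtain ⟨i, _, hi⟩ := Finset.prod_eq_zero_iff.1 h5
      exact hrz i (sub_eq_zero.1 hi)
  · obtain ⟨k, _, hk⟩ := Finset.prod_eq_zero_iff.1 h4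
    apply h1 k
    rw [← sub_eq_zero.1 hk]
    exact Cl.of_L hr

/-- uniqueness -/
theorem SysG.unique [IsAlgClosed N] (S : SysG L f g a bl z y) {α β α' β' : N[X]}
    (hα : α ∈ degreeLT N (a + 1)) (hβ : β ∈ degreeLT N (a - g)) (hv : Van z y α β)
    (h0 : ¬ (α = 0 ∧ β = 0))
    (hα' : α' ∈ degreeLT N (a + 1)) (hβ' : β' ∈ degreeLT N (a - g)) (hv' : Van z y α' β') :
    ∃ t : N, α' = C t * α ∧ β' = C t * β := by
  obtain ⟨s, hs⟩ := IsAlgClosed.exists_pow_nat_eq (f.eval 0) (n := 2) two_pos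
  set A := α.eval 0 + β.eval 0 * s with hA
  set B := α'.eval 0 + β'.eval 0 * s with hB
  have hz0 : ∀ i, (0 : N) ≠ z i := fun i h => S.ne0 i h.symm
  have ha0 : A ≠ 0 := fun h => h0 (S.noL hα hβ hv (zero_mem L) hz0 hs h)
  have h1 := S.noL (α := A • α' - B • α) (β := A • β' - B • β)
    (Submodule.sub_mem _ (Submodule.smul_mem _ _ hα') (Submodule.smul_mem _ _ hα))
    (Submodule.sub_mem _ (Submodule.smul_mem _ _ hβ') (Submodule.smul_mem _ _ hβ))
    (fun i => by
      simp only [eval_sub, eval_smul, smul_eq_mul]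
      linear_combination A * hv' i - B * hv i) (zero_mem L) hz0 hs (by
      simp only [eval_sub, eval_smul, smul_eq_mul]
      linear_combination (-A) * hB + B * hA)
  refine ⟨B / A, ?_, ?_⟩
  · have h2 := sub_eq_zero.1 h1.1
    rw [smul_eq_C_mul, smul_eq_C_mul] at h2
    have h3 : C A * C (A⁻¹) = (1 : N[X]) := by rw [← C_mul, mul_inv_cancel₀ ha0, C_1]
    rw [div_eq_mul_inv, C_mul]
    linear_combination (C A⁻¹) * h2 - α' * h3
  · have h2 := sub_eq_zero.1 h1.2
    rw [smul_eq_C_mul, smul_eq_C_mul] at h2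
    have h3 : C A * C (A⁻¹) = (1 : N[X]) := by rw [← C_mul, mul_inv_cancel₀ ha0, C_1]
    rw [div_eq_mul_inv, C_mul]
    linear_combination (C A⁻¹) * h2 - β' * h3

/-- existence -/
theorem SysG.exists_sol (S : SysG L f g a bl z y) :
    ∃ α β : N[X], α ∈ degreeLT N (a + 1) ∧ β ∈ degreeLT N (a - g) ∧ ¬ (α = 0 ∧ β = 0) ∧
      Van z y α β := by
  let T : (degreeLT N (a + 1) × degreeLT N (a - g)) →ₗ[N] (I → N) :=
    { toFun := fun p i => (p.1 : N[X]).eval (z i) + (p.2 : N[X]).eval (z i) * y i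
      map_add' := fun p q => by
        funext i
        simp only [Prod.fst_add, Prod.snd_add, Submodule.coe_add, eval_add, Pi.add_apply]
        ring
      map_smul' := fun c p => by
        funext i
        simp only [Prod.smul_fst, Prod.smul_snd, Submodule.coe_smul, eval_smul, Pi.smul_apply,
          smul_eq_mul, RingHom.id_apply]
        ring }
  have hf1 : Module.finrank N (degreeLT N (a + 1)) = a + 1 := by
    rw [(degreeLTEquiv N (a + 1)).finrank_eq, Module.finrank_fin_fun]
  have hf2 : Module.finrank N (degreeLT N (a - g)) = a - g := by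
    rw [(degreeLTEquiv N (a - g)).finrank_eq, Module.finrank_fin_fun]
  haveI : FiniteDimensional N (degreeLT N (a + 1)) :=
    Module.Finite.equiv (degreeLTEquiv N (a + 1)).symm
  haveI : FiniteDimensional N (degreeLT N (a - g)) :=
    Module.Finite.equiv (degreeLTEquiv N (a - g)).symm
  have hker : LinearMap.ker T ≠ ⊥ := by
    apply LinearMap.ker_ne_bot_of_finrank_lt
    rw [Module.finrank_prod, hf1, hf2, Module.finrank_fintype_fun_eq_card]
    have h1 := S.sum
    have h2 := S.card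
    omega
  obtain ⟨p, hp, hp0⟩ := Submodule.exists_mem_ne_zero_of_ne_bot hker
  refine ⟨p.1, p.2, p.1.2, p.2.2, ?_, fun i => congrFun (LinearMap.mem_ker.1 hp) i⟩
  rintro ⟨h1, h2⟩
  exact hp0 (Prod.ext (Subtype.ext h1) (Subtype.ext h2))

/-- **Core.** -/
theorem SysG.core [IsAlgClosed N] (S : SysG L f g a bl z y) :
    ∃ (α β : N[X]) (c : N) (w : Fin g → N), 2 * α.natDegree ≤ Fintype.card I + g ∧
      2 * β.natDegree + f.natDegree ≤ Fintype.card I + g ∧ c ≠ 0 ∧
      α ^ 2 - β ^ 2 * f = C c * (∏ i, (X - C (z i))) * (∏ k, (X - C (w k))) ∧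
      Van z y α β ∧ (∀ i, β.eval (z i) ≠ 0) ∧ (∀ k, β.eval (w k) ≠ 0) ∧
      (∀ k i, w k ≠ z i) ∧ Function.Injective w ∧ (∀ i, Cl L (Set.range w) (z i)) ∧
      ∀ k, ¬ Cl L (w '' {k}ᶜ) (w k) := by
  obtain ⟨α, β, hα, hβ, h0, hv⟩ := S.exists_sol
  obtain ⟨c, w, hc, hN, hw, hcl, h1⟩ := S.normal hα hβ h0 hv
  -- the conjugates
  have key : ∀ θ : N ≃ₐ[ℂ] N, (∀ x ∈ L, θ x = x) →
      ∀ π : Equiv.Perm I, (∀ k, θ (z k) = z (π k) ∧ θ (y k) = y (π k)) →
      ∀ r, (∃ k, r = w k) → ∃ k, θ r = w k := by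
    intro θ hgL π hπ r hr
    have hfg : f.map (θ : N →+* N) = f := by
      ext n
      rw [coeff_map]
      exact hgL _ (S.coeff n)
    obtain ⟨t, ht1, ht2⟩ := S.unique hα hβ hv h0 (α' := α.map (θ : N →+* N))
      (β' := β.map (θ : N →+* N)) (by
        rw [mem_degreeLT] at hα ⊢
        exact degree_map_le.trans_lt hα) (by
        rw [mem_degreeLT] at hβ ⊢
        exact degree_map_le.trans_lt hβ) (fun i => by
        obtain ⟨e1, e2⟩ := hπ (π.symm i)
        rw [Equiv.apply_symm_apply] at e1 e2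
        rw [← e1, ← e2, eval_map_aut, eval_map_aut, ← map_mul, ← map_add, hv, map_zero])
    have hmap := congrArg (Polynomial.map (θ : N →+* N)) hN
    rw [Polynomial.map_sub, Polynomial.map_mul, Polynomial.map_pow, Polynomial.map_pow, hfg,
      ht1, ht2, Polynomial.map_mul, Polynomial.map_mul, Polynomial.map_prod, Polynomial.map_prod,
      map_C] at hmap
    simp only [Polynomial.map_sub, Polynomial.map_X, map_C] at hmap
    have hprod : ∏ i, (X - C ((θ : N →+* N) (z i))) = ∏ i, (X - C (z i)) := by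
      have e : ∀ i, (X - C ((θ : N →+* N) (z i)) : N[X]) = X - C (z (π i)) := by
        intro i
        have := (hπ i).1
        congr 2
      rw [Finset.prod_congr rfl fun i _ => e i]
      exact Equiv.prod_comp π (fun i => (X - C (z i) : N[X]))
    rw [hprod] at hmap
    have h3 : (C t * α) ^ 2 - (C t * β) ^ 2 * f = C (t ^ 2) * (α ^ 2 - β ^ 2 * f) := by
      rw [C_pow]
      ring
    rw [h3, hN] at hmap
    have hP0 : (∏ i, (X - C (z i))) ≠ 0 :=
      (monic_prod_of_monic _ _ fun i _ => monic_X_sub_C _).ne_zero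
    have hR0 : (∏ k, (X - C ((θ : N →+* N) (w k)))) ≠ 0 :=
      (monic_prod_of_monic _ _ fun i _ => monic_X_sub_C _).ne_zero
    have h4 : C (t ^ 2 * c) * (∏ k, (X - C (w k))) =
        C ((θ : N →+* N) c) * (∏ k, (X - C ((θ : N →+* N) (w k)))) := by
      apply mul_left_cancel₀ hP0
      rw [C_mul]
      linear_combination hmap
    have h5 := congrArg (Polynomial.eval (θ r)) h4
    simp only [eval_mul, eval_C, eval_prod, eval_sub, eval_X] at h5
    have h6 : ∏ k, (θ r - (θ : N →+* N) (w k)) = 0 := by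
      obtain ⟨k, rfl⟩ := hr
      exact Finset.prod_eq_zero (Finset.mem_univ k) (sub_self _)
    have hgc : (θ : N →+* N) c ≠ 0 := by
      intro h7
      exact hc (θ.injective (by rw [map_zero]; exact h7))
    rw [h6, mul_zero] at h5
    have ht0 : t ^ 2 * c ≠ 0 := by
      intro h8
      rw [h8, C_0, zero_mul] at h4
      exact mul_ne_zero (C_ne_zero.2 hgc) hR0 h4.symm
    obtain ⟨k, _, hk⟩ := Finset.prod_eq_zero_iff.1 ((mul_eq_zero.1 h5).resolve_left ht0)
    exact ⟨k, sub_eq_zero.1 hk⟩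
  have hA : ∀ k i, w k ≠ z i := by
    intro k i hi
    cases hb : bl i with
    | none =>
      apply h1 k
      rw [hi]
      exact Cl.of_L (S.fix i hb)
    | some b =>
    obtain ⟨j, hj, hne⟩ := S.other b i hb
    obtain ⟨θ, hgL, hgi, π, hπ⟩ := S.aut b i j hb hj hne
    obtain ⟨k', hk'⟩ := key θ hgL π hπ (w k) ⟨k, rfl⟩
    rw [hi, hgi] at hk'
    have hkk : k' ≠ k := by
      rintro rfl
      rw [hi] at hk'
      exact hne (S.inj hk'.symm)
    apply h1 k'
    rw [← hk']
    refine (S.same b i j hb hj).mono ?_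
    rintro _ rfl
    exact ⟨k, fun h => hkk (by rw [Set.mem_singleton_iff] at h; exact h.symm), hi⟩
  -- simple roots
  have hdouble : ∀ r, α.eval r = 0 → β.eval r = 0 → (X - C r) ^ 2 ∣ α ^ 2 - β ^ 2 * f := by
    intro r ha hb
    have ha' := dvd_iff_isRoot.2 (show α.IsRoot r from ha)
    have hb' := dvd_iff_isRoot.2 (show β.IsRoot r from hb)
    exact dvd_sub (pow_dvd_pow_of_dvd ha' 2) ((pow_dvd_pow_of_dvd hb' 2).mul_right f)
  have hnotdvd : ∀ r, ¬ (X - C r) ^ 2 ∣
      C c * (∏ i, (X - C (z i))) * (∏ k, (X - C (w k))) := by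
    intro r hr
    have hs : Function.Injective (Sum.elim w z) := by
      intro p q hpq
      rcases p with p | p <;> rcases q with q | q
      · exact congrArg Sum.inl (hw hpq)
      · exact absurd hpq (hA p q)
      · exact absurd hpq.symm (hA q p)
      · exact congrArg Sum.inr (S.inj hpq)
    have hprod : ∏ o, (X - C (Sum.elim w z o)) =
        (∏ k, (X - C (w k))) * (∏ i, (X - C (z i))) := by
      rw [Fintype.prod_sum_type]
      rfl
    have hsep : (∏ o, (X - C (Sum.elim w z o))).Separable :=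
      separable_prod_X_sub_C_iff.2 hs
    have h3 : (X - C r) ^ 2 ∣ ∏ o, (X - C (Sum.elim w z o)) := by
      have h4 : C c * (∏ i, (X - C (z i))) * (∏ k, (X - C (w k))) =
          C c * ∏ o, (X - C (Sum.elim w z o)) := by
        rw [hprod]
        ring
      rw [h4] at hr
      exact (IsUnit.dvd_mul_left (isUnit_C.2 (isUnit_iff_ne_zero.2 hc))).1 hr
    have h4 := hsep.squarefree (X - C r) (by rwa [← pow_two])
    exact not_isUnit_X_sub_C r h4
  have hβroot : ∀ r, (α ^ 2 - β ^ 2 * f).eval r = 0 → β.eval r ≠ 0 := by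
    intro r h4 h5
    rw [eval_sub, eval_mul, eval_pow, eval_pow, h5, zero_pow two_ne_zero, zero_mul, sub_zero]
      at h4
    apply hnotdvd r
    rw [← hN]
    exact hdouble r (pow_eq_zero_iff two_ne_zero |>.1 h4) h5
  have hdα := S.deg_left hα
  have hdβ := S.deg_right hβ
  have hsum := S.sum
  have hhi := S.hi
  refine ⟨α, β, c, w, by omega, by omega, hc, hN, hv, fun i => ?_, fun k => ?_, hA, hw, hcl, h1⟩
  · exact hβroot _ (norm_root (S.pt i) (hv i))
  · apply hβroot
    rw [hN, eval_mul, eval_prod Finset.univ (fun j => X - C (w j))]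
    have h6 : ∏ j, (X - C (w j)).eval (w k) = 0 :=
      Finset.prod_eq_zero (Finset.mem_univ k) (by simp)
    rw [h6, mul_zero]

end

end Vale.Agent.P297.Gg
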