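import Vale.Agent.P297.H839.Defs

/-!
Definitions: pencils of hyperelliptic curves and their rational quotients.
-/

open IntermediateField Polynomial

namespace Vale.Agent.P297.Gg

open Vale.Agent.P297 Vale.Agent.P297.H839

/-- A pencil of hyperelliptic curves of genus `g`: `K = ℂ(l, x, y)` with `l`, `x` algebraically
independent and `y² = f(x)`, where `f` is a squarefree polynomial of degree `2g + 1` or `2g + 2`
over `ℂ(l)`. -/
structure HPencil {K : Type} [Field K] [Algebra ℂ K] (g : ℕ) (l x y : K)
    (f : (IntermediateField.adjoin ℂ {l})[X]) : Prop where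
  ind : AlgebraicIndependent ℂ ![l, x]
  sqf : Squarefree f
  low : 2 * g + 1 ≤ f.natDegree
  high : f.natDegree ≤ 2 * g + 2
  eq : y ^ 2 = Polynomial.aeval x f
  top : IntermediateField.adjoin ℂ {l, x, y} = ⊤

/-- The field `F` is purely transcendental over `ℂ` and contains `l`, the field `K = F(x)` has
degree `n ≥ 2` over `F`, and the differential form `a(x) dx / y` of `K` over `ℂ(l)` is defined over
`F`: it is `dw / v` with `w = P(x) / Q(x)` and `v = y w'(x) / a(x)` in `F`, `w' ≠ 0`. -/
structure RationalQuotient {K : Type} [Field K] [Algebra ℂ K] (l x y : K)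
    (F : IntermediateField ℂ K) (n : ℕ) (a : (IntermediateField.adjoin ℂ {l})[X]) : Prop where
  rational : IsRational F
  mem : l ∈ F
  gen : F ⊔ IntermediateField.adjoin ℂ {x} = ⊤
  degree : Module.finrank F K = n
  two : 2 ≤ n
  form : ∃ P Q : (IntermediateField.adjoin ℂ {l})[X], aeval x Q ≠ 0 ∧
    aeval x (derivative P * Q - P * derivative Q) ≠ 0 ∧ aeval x P / aeval x Q ∈ F ∧
    y * (aeval x (derivative P * Q - P * derivative Q) / aeval x Q ^ 2) / aeval x a ∈ F

end Vale.Agent.P297.Gg
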