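import Vale.Agent.P297.Gg.Block

/-!
The residual points determine the fibres up to algebraic dependence.
-/

set_option linter.unusedSectionVars false
set_option linter.style.haveILetI false

open CategoryTheory AlgebraicGeometry IntermediateField Polynomial

namespace Vale.Agent.P297.Gg

open Vale.Agent.P297 Vale.Agent.P297.H839 Vale.Agent.P297.H516 Vale.Agent.P297.H878
  Vale.Agent.P297.Gen

/-- The domination property for several fibres and additional points. -/
theorem dom_several {N : Type} [Field N] [Algebra ℂ N] [IsAlgClosed N] {g : ℕ} {n : Fin g → ℕ}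
    (hpos : ∀ b, 0 < n b) {κ : Type} [Fintype κ] {z y : (Σ b, Fin (n b)) → N} {z' y' : κ → N}
    (L M : IntermediateField ℂ N) (hLM : L ≤ M) (hM : ∀ x, IsAlgebraic M x → x ∈ M)
    {f α β Q : N[X]} (hf : ∀ n, f.coeff n ∈ L) (hsq : Squarefree f)
    (hdeg : 2 * g + 1 ≤ f.natDegree) (hz : Function.Injective (Sum.elim z z'))
    (hy : ∀ i, Sum.elim y y' i ^ 2 = f.eval (Sum.elim z z' i))
    (a : Fin g → N[X]) (ha : ∀ b, (a b).natDegree < g)
    (ha0 : ∀ b i, (a b).eval (z ⟨b, i⟩) ≠ 0)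
    (hD : ∀ D : Derivation ℤ N N, (∀ x ∈ L, D x = 0) → ∀ b i j,
      (a b).eval (z ⟨b, i⟩) * D (z ⟨b, i⟩) / y ⟨b, i⟩ =
        (a b).eval (z ⟨b, j⟩) * D (z ⟨b, j⟩) / y ⟨b, j⟩)
    (htr : ∀ b c, c ≠ b → ∑ i, (a c).eval (z ⟨b, i⟩) / (a b).eval (z ⟨b, i⟩) = 0)
    (hy0 : ∀ i, y i ≠ 0) (hz' : ∀ k, z' k ∈ M)
    (hG : ∀ i, α.eval (Sum.elim z z' i) + β.eval (Sum.elim z z' i) * Sum.elim y y' i = 0)
    (hQ0 : Q ≠ 0)
    (hN : α ^ 2 - β ^ 2 * f = (∏ i, (X - C (Sum.elim z z' i))) * Q)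
    (hQ : ∀ r, Q.IsRoot r → r ∈ M) (i : Σ b, Fin (n b)) : z i ∈ M := by
  haveI : CharZero N := charZero_of_injective_algebraMap (algebraMap ℂ N).injective
  have key : ∀ D : Derivation ℤ N N, (∀ x ∈ M, D x = 0) → D (z i) = 0 := by
    intro D hDM
    have hDL : ∀ x ∈ L, D x = 0 := fun x hx => hDM x (hLM hx)
    have hab : ∀ k, k < g → ∑ i, z i ^ k * D (z i) / y i = 0 := by
      intro k hk
      have h1 := abel D (fun n => hDL _ (hf n)) hsq hdeg hz hy hG hQ0 hN
        (fun r hr => hDM r (hQ r hr)) hk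
      rw [Fintype.sum_sum_type] at h1
      simp only [Sum.elim_inl, Sum.elim_inr] at h1
      have h2 : ∑ k', z' k' ^ k * D (z' k') / y' k' = 0 :=
        Finset.sum_eq_zero fun k' _ => by rw [hDM _ (hz' k'), mul_zero, zero_div]
      rw [h2, add_zero] at h1
      exact h1
    have hac : ∀ c, ∑ i, (a c).eval (z i) * D (z i) / y i = 0 := by
      intro c
      have h1 : ∀ i, (a c).eval (z i) * D (z i) / y i =
          ∑ k ∈ Finset.range g, (a c).coeff k * (z i ^ k * D (z i) / y i) := by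
        intro i
        rw [Polynomial.eval_eq_sum_range' (ha c), Finset.sum_mul, Finset.sum_div]
        refine Finset.sum_congr rfl fun k _ => ?_
        rw [mul_assoc, mul_div_assoc]
      rw [Finset.sum_congr rfl fun i _ => h1 i, Finset.sum_comm]
      refine Finset.sum_eq_zero fun k hk => ?_
      rw [← Finset.mul_sum, hab k (Finset.mem_range.1 hk), mul_zero]
    obtain ⟨c, i₀⟩ := i
    have h3 := hac c
    rw [Fintype.sum_sigma] at h3
    have h4 : ∀ b, b ≠ c → ∑ i, (a c).eval (z ⟨b, i⟩) * D (z ⟨b, i⟩) / y ⟨b, i⟩ = 0 := by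
      intro b hb
      let j₀ : Fin (n b) := ⟨0, hpos b⟩
      have h5 : ∀ i, (a c).eval (z ⟨b, i⟩) * D (z ⟨b, i⟩) / y ⟨b, i⟩ =
          (a c).eval (z ⟨b, i⟩) / (a b).eval (z ⟨b, i⟩) *
            ((a b).eval (z ⟨b, j₀⟩) * D (z ⟨b, j₀⟩) / y ⟨b, j₀⟩) := by
        intro i
        rw [← hD D hDL b i j₀]
        have := ha0 b i
        field_simp
      rw [Finset.sum_congr rfl fun i _ => h5 i, ← Finset.sum_mul, htr b c hb.symm, zero_mul]
    rw [Finset.sum_eq_single c (fun b _ hb => h4 b hb)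
      (fun h => absurd (Finset.mem_univ c) h)] at h3
    rw [Finset.sum_congr rfl fun i _ => hD D hDL c i i₀, Finset.sum_const, nsmul_eq_mul] at h3
    have h6 : ((Finset.univ : Finset (Fin (n c))).card : N) ≠ 0 := by
      rw [Finset.card_univ, Fintype.card_fin]
      exact Nat.cast_ne_zero.2 (hpos c).ne'
    have h7 := (mul_eq_zero.1 h3).resolve_left h6
    have h8 := (div_eq_zero_iff.1 h7).resolve_right (hy0 _)
    exact (mul_eq_zero.1 h8).resolve_left (ha0 c i₀)
  by_contra hxM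
  obtain ⟨D, hD', hDx⟩ := exists_derivation M (w := z i) (fun h => hxM (hM _ h))
  have := key D hD'
  rw [hDx] at this
  exact one_ne_zero this

section Fam

variable {K : Type} [Field K] [Algebra ℂ K] {N : Type} [Field N] [Algebra ℂ N] [IsAlgClosed N]

/-- The domination property. -/
theorem dom_fam {g : ℕ} {l x y : K} {f : (IntermediateField.adjoin ℂ {l})[X]}
    (h : HPencil g l x y f)
    (lam : IntermediateField.adjoin ℂ {l} →ₐ[ℂ] N) (L : IntermediateField ℂ N)
    (hlamL : ∀ e, lam e ∈ L) {n : Fin g → ℕ} (hpos : ∀ b, 0 < n b) {κ : Type} [Fintype κ]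
    (σ : (Σ b, Fin (n b)) → (K →ₐ[ℂ] N)) (ρ : κ → (K →ₐ[ℂ] N))
    (hσ : ∀ i (e : IntermediateField.adjoin ℂ {l}), Sum.elim σ ρ i e = lam e)
    (hinj : Function.Injective fun i => Sum.elim σ ρ i x)
    (F : Fin g → IntermediateField ℂ K) (hF : ∀ b, Module.finrank (F b) K = n b)
    (hagree : ∀ b i j, ∀ k ∈ F b, σ ⟨b, i⟩ k = σ ⟨b, j⟩ k)
    (a : Fin g → (IntermediateField.adjoin ℂ {l})[X]) (ha : ∀ b, (a b).natDegree < g)
    (q : ∀ b, RationalQuotient l x y (F b) (n b) (a b)) (ha0 : ∀ b, a b ≠ 0)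
    (htr : ∀ b c, c ≠ b → Algebra.trace (F b) K (aeval x (a c) / aeval x (a b)) = 0)
    (α β Q : N[X]) (hQ0 : Q ≠ 0)
    (hG : ∀ i, α.eval (Sum.elim σ ρ i x) + β.eval (Sum.elim σ ρ i x) * Sum.elim σ ρ i y = 0)
    (hN : α ^ 2 - β ^ 2 * f.map lam.toRingHom = (∏ i, (X - C (Sum.elim σ ρ i x))) * Q)
    (M : IntermediateField ℂ N) (hM : ∀ u, IsAlgebraic M u → u ∈ M) (hLM : L ≤ M)
    (hρ : ∀ k, ρ k x ∈ M)
    (hQ : ∀ r, Q.IsRoot r → r ∈ M) (i : Σ b, Fin (n b)) : σ i x ∈ M := by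
  have hcoef : ∀ (p : (IntermediateField.adjoin ℂ {l})[X]) (n : ℕ),
      (p.map lam.toRingHom).coeff n ∈ L := by
    intro p n
    rw [coeff_map]
    exact hlamL _
  have hev : ∀ (i : (Σ b, Fin (n b)) ⊕ κ) (p : (IntermediateField.adjoin ℂ {l})[X]),
      Sum.elim σ ρ i (aeval x p) = (p.map lam.toRingHom).eval (Sum.elim σ ρ i x) := by
    intro i p
    rw [Polynomial.eval_map, Polynomial.aeval_def]
    refine (Polynomial.hom_eval₂ p _ (Sum.elim σ ρ i).toRingHom x).trans ?_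
    congr 1
    exact RingHom.ext fun e => hσ i e
  have hev' : ∀ (i : Σ b, Fin (n b)) (p : (IntermediateField.adjoin ℂ {l})[X]),
      σ i (aeval x p) = (p.map lam.toRingHom).eval (σ i x) := fun i p => hev (Sum.inl i) p
  have hy0 : ∀ i : Σ b, Fin (n b), σ i y ≠ 0 := by
    intro i h0
    have h1 : y = 0 := (σ i).toRingHom.injective (h0.trans (map_zero _).symm)
    apply h.notMem
    rw [h1]
    exact zero_mem _
  have haev : ∀ b, aeval x (a b) ≠ 0 := by
    intro b h0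
    have h1 : Transcendental (IntermediateField.adjoin ℂ ({l} : Set K)) x :=
      ((pair_iff l x).1 h.ind).2
    exact h1 ⟨a b, ha0 b, h0⟩
  have hai : ∀ (i : Σ b, Fin (n b)) b, ((a b).map lam.toRingHom).eval (σ i x) ≠ 0 := by
    intro i b h0
    rw [← hev'] at h0
    exact haev b ((σ i).toRingHom.injective (h0.trans (map_zero _).symm))
  choose P R hR hJ hw hv using fun b => (q b).form
  have hder : ∀ (i : Σ b, Fin (n b)) (P R : (IntermediateField.adjoin ℂ {l})[X])
      (hR : aeval x R ≠ 0) (D : Derivation ℤ N N) (hD : ∀ u ∈ L, D u = 0),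
      D (σ i x) * σ i (aeval x (derivative P * R - P * derivative R) / aeval x R ^ 2) =
        D (σ i (aeval x P / aeval x R)) := by
    intro i P R hR D hD
    have hRi : (R.map lam.toRingHom).eval (σ i x) ≠ 0 := by
      rw [← hev']
      exact fun h0 => hR ((σ i).toRingHom.injective (h0.trans (map_zero _).symm))
    have h1 := der_fibre L (P := P.map lam.toRingHom) (Q := R.map lam.toRingHom) (hcoef P)
      (hcoef R) (w := σ i (aeval x P / aeval x R)) (z := σ i x) (by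
        rw [map_div₀, hev', hev', div_mul_cancel₀ _ hRi]) hRi D hD
    rw [← h1, map_div₀, map_pow, hev', hev', derivative_map, derivative_map]
    simp only [Polynomial.map_sub, Polynomial.map_mul]
  refine dom_several (z := fun i => σ i x) (y := fun i => σ i y) (z' := fun k => ρ k x)
    (y' := fun k => ρ k y) hpos L M hLM hM (f := f.map lam.toRingHom) (α := α) (β := β) (Q := Q)
    (hcoef f) (h.sep.map (f := lam.toRingHom)).squarefree (by rw [natDegree_map]; exact h.low) ?_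
    ?_ (fun b => (a b).map lam.toRingHom) (fun b => by
      change ((a b).map lam.toRingHom).natDegree < g
      rw [natDegree_map]
      exact ha b) (fun b i => hai ⟨b, i⟩ b) ?_ ?_ hy0 hρ ?_ hQ0 ?_ hQ i
  · have h2 : (Sum.elim (fun i => σ i x) fun k => ρ k x) = fun i => Sum.elim σ ρ i x := by
      funext i
      rcases i with i | i <;> rfl
    rw [h2]
    exact hinj
  · rintro (i | i)
    · change σ i y ^ 2 = _
      rw [← map_pow, h.eq]
      exact hev (Sum.inl i) f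
    · change ρ i y ^ 2 = _
      rw [← map_pow, h.eq]
      exact hev (Sum.inr i) f
  · intro D hD b i j
    change ((a b).map lam.toRingHom).eval (σ ⟨b, i⟩ x) * D (σ ⟨b, i⟩ x) / σ ⟨b, i⟩ y =
      ((a b).map lam.toRingHom).eval (σ ⟨b, j⟩ x) * D (σ ⟨b, j⟩ x) / σ ⟨b, j⟩ y
    have e1 := hder ⟨b, i⟩ (P b) (R b) (hR b) D hD
    have e2 := hder ⟨b, j⟩ (P b) (R b) (hR b) D hD
    rw [hagree b i j _ (hw b)] at e1
    have e3 := hagree b i j _ (hv b)
    set J := aeval x (derivative (P b) * R b - P b * derivative (R b)) / aeval x (R b) ^ 2 with hJd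
    have hJ0 : J ≠ 0 := div_ne_zero (hJ b) (pow_ne_zero 2 (hR b))
    have hJi : ∀ k, σ k J ≠ 0 := fun k h0 =>
      hJ0 ((σ k).toRingHom.injective (h0.trans (map_zero _).symm))
    have ai := hai ⟨b, i⟩ b
    have aj := hai ⟨b, j⟩ b
    rw [map_div₀, map_div₀, map_mul, map_mul, hev' ⟨b, i⟩ (a b), hev' ⟨b, j⟩ (a b),
      div_eq_div_iff ai aj] at e3
    rw [div_eq_div_iff (hy0 _) (hy0 _)]
    apply mul_right_cancel₀ (mul_ne_zero (hJi ⟨b, i⟩) (hJi ⟨b, j⟩))
    linear_combination (((a b).map lam.toRingHom).eval (σ ⟨b, i⟩ x) * σ ⟨b, j⟩ y *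
        σ ⟨b, j⟩ J) * e1 -
      (((a b).map lam.toRingHom).eval (σ ⟨b, j⟩ x) * σ ⟨b, i⟩ y * σ ⟨b, i⟩ J) * e2 -
      D (σ ⟨b, j⟩ (aeval x (P b) / aeval x (R b))) * e3
  · intro b c hbc
    have h3 := sum_eq_zero_of_trace (hF b) (fun i => σ ⟨b, i⟩) (fun i j hij => by
      have h4 := hinj (a₁ := Sum.inl ⟨b, i⟩) (a₂ := Sum.inl ⟨b, j⟩)
        (congrArg (fun φ : K →ₐ[ℂ] N => φ x) hij)
      have h5 := Sum.inl_injective h4
      exact eq_of_heq (Sigma.mk.inj h5).2) (hagree b) (htr b c hbc)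
    rw [← h3]
    refine Finset.sum_congr rfl fun i _ => ?_
    change ((a c).map lam.toRingHom).eval (σ ⟨b, i⟩ x) /
      ((a b).map lam.toRingHom).eval (σ ⟨b, i⟩ x) = σ ⟨b, i⟩ (aeval x (a c) / aeval x (a b))
    rw [map_div₀, hev', hev']
  · rintro (i | i)
    · exact hG (Sum.inl i)
    · exact hG (Sum.inr i)
  · rw [hN]
    congr 1
    refine Finset.prod_congr rfl fun i _ => ?_
    rcases i with i | i <;> rfl

end Fam

end Vale.Agent.P297.Gg
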