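import Vale.Agent.P297.Gg.SetupPlus
import Vale.Agent.P297.Gg.H516.Sub

/-!
Zero-cycles on the surfaces dominated by a pencil of hyperelliptic curves whose Jacobian splits.
-/

set_option linter.unusedSectionVars false
set_option linter.style.haveILetI false

open CategoryTheory AlgebraicGeometry IntermediateField Polynomial

namespace Vale.Agent.P297.Gg

open Vale.Agent.P297 Vale.Agent.P297.H839 Vale.Agent.P297.H516 Vale.Agent.P297.H878
  Vale.Agent.P297.Gen

/-- **Zero-cycles on pencils of hyperelliptic curves whose Jacobian is generated by rational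
quotients.** -/
theorem hyperelliptic_quotients {K : Type} [Field K] [Algebra ℂ K] {g : ℕ} {l x y : K}
    {f : (IntermediateField.adjoin ℂ {l})[X]}
    (h : HPencil g l x y f) (hg : 1 ≤ g) (F : Fin g → IntermediateField ℂ K)
    {n : Fin g → ℕ} (a : Fin g → (IntermediateField.adjoin ℂ {l})[X])
    (ha : ∀ b, (a b).natDegree < g)
    (q : ∀ b, RationalQuotient l x y (F b) (n b) (a b))
    (hli : LinearIndependent (IntermediateField.adjoin ℂ {l}) a)
    (htr : ∀ b c, F c ≠ F b → Algebra.trace (F b) K (aeval x (a c) / aeval x (a b)) = 0)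
    (K₀ : Type) [Field K₀] [Algebra ℂ K₀] (e : K₀ →ₐ[ℂ] K) : PointsEquivalent K₀ := by
  obtain ⟨N, _, _, _, lam, L, e', m, σ, ρ, hLc, hlamL, hLw, hbase, hagree, hρL, hall, hS⟩ :=
    exists_sysG_plus h hg F a ha q hli htr
  exact asmG_sub h lam L hlamL hLw σ ρ (fun i => hbase (Sum.inl i)) (fun i => hbase (Sum.inr i))
    hρL hS F (fun b => (q b).rational) (fun b => (q b).gen) (fun b => (q b).degree)
    (fun b => by have := (q b).two; omega) hagree K₀ e

end Vale.Agent.P297.Gg
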